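import Mathlib

/-!
# P038, Seymour's second neighbourhood conjecture: locally sparse oriented graphs
-/

namespace Vale.Agent.Results.P038.LocallySparse

open Finset Classical

variable {V : Type*} [Fintype V]

/-- `D` is (the arc relation of) an oriented graph: no two opposite arcs, hence no loops. -/
def IsOriented (D : V → V → Prop) : Prop := ∀ a b, D a b → ¬ D b a

/-- The first out-neighbourhood of `v`. -/
noncomputable def N1 (D : V → V → Prop) (v : V) : Finset V :=
  univ.filter (fun w => D v w)

/-- The second out-neighbourhood of `v`: the vertices at directed distance exactly two. -/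
noncomputable def N2 (D : V → V → Prop) (v : V) : Finset V :=
  univ.filter (fun w => w ≠ v ∧ ¬ D v w ∧ ∃ u, D v u ∧ D u w)

/-- The number of common out-neighbours of `a` and `b`. -/
noncomputable def cod (D : V → V → Prop) (a b : V) : ℕ :=
  (univ.filter (fun z => D a z ∧ D b z)).card

/-- The number of transitive triangles that contain the arc `a → b` (the third vertex `z` being
the sink, the middle vertex or the source of the triangle). -/
noncomputable def triangles (D : V → V → Prop) (a b : V) : ℕ :=
  (univ.filter (fun z => D a z ∧ D b z)).card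
    + (univ.filter (fun z => D a z ∧ D z b)).card
    + (univ.filter (fun z => D z a ∧ D z b)).card

lemma mem_N1 {D : V → V → Prop} {v w : V} : w ∈ N1 D v ↔ D v w := by simp [N1]

lemma mem_N2 {D : V → V → Prop} {v w : V} :
    w ∈ N2 D v ↔ w ≠ v ∧ ¬ D v w ∧ ∃ u, D v u ∧ D u w := by simp [N2]

/-- Every out-neighbour of an out-neighbour `u` of `v` lies in `N1 v` or in `N2 v`. -/
lemma card_split {D : V → V → Prop} (hD : IsOriented D) {v u : V} (h : D v u) :
    (N1 D u).card = cod D v u + (N1 D u ∩ N2 D v).card := by
  have h1 : N1 D u = univ.filter (fun z => D v z ∧ D u z) ∪ (N1 D u ∩ N2 D v) := by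
    ext z
    simp only [mem_N1, mem_union, mem_filter, mem_univ, true_and, mem_inter, mem_N2]
    constructor
    · intro hz
      by_cases hv : D v z
      · exact Or.inl ⟨hv, hz⟩
      · refine Or.inr ⟨hz, ?_, hv, u, h, hz⟩
        rintro rfl
        exact hD _ _ h hz
    · rintro (⟨_, hz⟩ | ⟨hz, _⟩) <;> exact hz
  have h2 : Disjoint (univ.filter (fun z => D v z ∧ D u z)) (N1 D u ∩ N2 D v) := by
    rw [Finset.disjoint_left]
    intro z hz hz'
    simp only [mem_filter, mem_univ, true_and, mem_inter, mem_N2] at hz hz'
    exact hz'.2.2.1 hz.1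
  unfold cod
  rw [← card_union_of_disjoint h2, ← h1]

lemma one_arc {D : V → V → Prop} (hD : IsOriented D) {v u : V} (h : D v u) :
    (N1 D u).card ≤ (N2 D v).card + cod D v u := by
  rw [card_split hD h]
  have := card_le_card (inter_subset_right : N1 D u ∩ N2 D v ⊆ N2 D v)
  omega

/-- The triangle inequality behind everything. -/
lemma triangle_ineq {D : V → V → Prop} (hD : IsOriented D) {v u w : V}
    (hu : D v u) (hw : D v w) :
    (N1 D u).card + (N1 D w).card
        + (univ.filter (fun z => D v z ∧ D u z ∧ D w z)).card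
      ≤ (N2 D v).card + cod D v u + cod D v w + cod D u w := by
  rw [card_split hD hu, card_split hD hw]
  have h1 := card_union_add_card_inter (N1 D u ∩ N2 D v) (N1 D w ∩ N2 D v)
  have h2 : ((N1 D u ∩ N2 D v) ∪ (N1 D w ∩ N2 D v)).card ≤ (N2 D v).card := by
    apply card_le_card
    intro z hz
    simp only [mem_union, mem_inter] at hz
    tauto
  have h3 : (univ.filter (fun z => D v z ∧ D u z ∧ D w z)).card
      + ((N1 D u ∩ N2 D v) ∩ (N1 D w ∩ N2 D v)).card ≤ cod D u w := by
    unfold cod
    rw [← card_union_of_disjoint]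
    · apply card_le_card
      intro z hz
      simp only [mem_union, mem_inter, mem_filter, mem_univ, true_and, mem_N1] at hz ⊢
      tauto
    · rw [Finset.disjoint_left]
      intro z hz hz'
      simp only [mem_filter, mem_univ, true_and, mem_inter, mem_N2] at hz hz'
      exact hz'.1.2.2.1 hz.1
  omega

/-- (A) the local statement. -/
lemma partA {D : V → V → Prop} (hD : IsOriented D) (t : ℕ)
    (ht : ∀ a b, D a b → cod D a b ≤ t) (v : V) (hv : ∀ u, (N1 D v).card ≤ (N1 D u).card) :
    (N1 D v).card ≤ (N2 D v).card ∨ 2 * (N1 D v).card ≤ (N2 D v).card + 3 * t := by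
  by_cases h0 : (N1 D v).card = 0
  · left; omega
  obtain ⟨u, hu⟩ := card_pos.mp (Nat.pos_of_ne_zero h0)
  rw [mem_N1] at hu
  by_cases h1 : cod D v u = 0
  · left
    have := one_arc hD hu
    have := hv u
    omega
  · right
    obtain ⟨w, hw⟩ := card_pos.mp (Nat.pos_of_ne_zero h1)
    simp only [mem_filter, mem_univ, true_and] at hw
    have h2 := triangle_ineq hD hu hw.1
    have h3 := ht _ _ hu
    have h4 := ht _ _ hw.1
    have h5 := ht _ _ hw.2
    have h6 := hv u
    have h7 := hv w
    omega

/-- (B) the global statement. -/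
lemma partB [Nonempty V] {D : V → V → Prop} (hD : IsOriented D) (d s : ℕ)
    (hd : ∀ v, d ≤ (N1 D v).card) (hs : ∀ a b, D a b → triangles D a b ≤ s) :
    ∃ v, (N1 D v).card ≤ (N2 D v).card ∨ 2 * d ≤ (N2 D v).card + s := by
  by_contra hcon
  push Not at hcon
  -- the number of transitive triangles
  set T : ℕ := ∑ v : V, ∑ u : V, ∑ w : V, if D v u ∧ D v w ∧ D u w then 1 else 0 with hT
  -- each triangle satisfies the triangle inequality
  have h1 : ∀ v u w : V, (if D v u ∧ D v w ∧ D u w then 1 else 0) * (s + 1) ≤
      (if D v u ∧ D v w ∧ D u w then cod D v u else 0)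
      + (if D v u ∧ D v w ∧ D u w then cod D v w else 0)
      + (if D v u ∧ D v w ∧ D u w then cod D u w else 0) := by
    intro v u w
    split_ifs with h
    · have h2 := triangle_ineq hD h.1 h.2.1
      have h3 := (hcon v).2
      have h4 := hd u
      have h5 := hd w
      omega
    · simp
  have h2 : T * (s + 1) ≤
      (∑ v : V, ∑ u : V, ∑ w : V, if D v u ∧ D v w ∧ D u w then cod D v u else 0)
      + (∑ v : V, ∑ u : V, ∑ w : V, if D v u ∧ D v w ∧ D u w then cod D v w else 0)
      + (∑ v : V, ∑ u : V, ∑ w : V, if D v u ∧ D v w ∧ D u w then cod D u w else 0) := by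
    rw [hT]
    simp only [Finset.sum_mul, ← Finset.sum_add_distrib]
    exact sum_le_sum fun v _ => sum_le_sum fun u _ => sum_le_sum fun w _ => h1 v u w
  -- the three sums, arc by arc
  have e1 : (∑ v : V, ∑ u : V, ∑ w : V, if D v u ∧ D v w ∧ D u w then cod D v u else 0)
      = ∑ a : V, ∑ b : V, if D a b then
          cod D a b * (univ.filter (fun z => D a z ∧ D b z)).card else 0 := by
    refine sum_congr rfl fun a _ => sum_congr rfl fun b _ => ?_
    by_cases h : D a b
    · simp only [h, true_and, if_true]
      rw [← sum_filter, sum_const, smul_eq_mul, mul_comm]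
    · simp [h]
  have e2 : (∑ v : V, ∑ u : V, ∑ w : V, if D v u ∧ D v w ∧ D u w then cod D v w else 0)
      = ∑ a : V, ∑ b : V, if D a b then
          cod D a b * (univ.filter (fun z => D a z ∧ D z b)).card else 0 := by
    refine sum_congr rfl fun a _ => ?_
    rw [sum_comm]
    refine sum_congr rfl fun b _ => ?_
    by_cases h : D a b
    · simp only [h, true_and, if_true]
      rw [← sum_filter, sum_const, smul_eq_mul, mul_comm]
    · simp [h]
  have e3 : (∑ v : V, ∑ u : V, ∑ w : V, if D v u ∧ D v w ∧ D u w then cod D u w else 0)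
      = ∑ a : V, ∑ b : V, if D a b then
          cod D a b * (univ.filter (fun z => D z a ∧ D z b)).card else 0 := by
    rw [sum_comm]
    refine sum_congr rfl fun a _ => ?_
    rw [sum_comm]
    refine sum_congr rfl fun b _ => ?_
    by_cases h : D a b
    · simp only [h, and_true, if_true]
      rw [← sum_filter, sum_const, smul_eq_mul, mul_comm]
    · simp [h]
  have e0 : T = ∑ a : V, ∑ b : V, if D a b then cod D a b else 0 := by
    rw [hT]
    refine sum_congr rfl fun a _ => sum_congr rfl fun b _ => ?_
    by_cases h : D a b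
    · simp only [h, true_and, if_true]
      rw [← sum_filter, sum_const, smul_eq_mul, mul_one]
      rfl
    · simp [h]
  have h3 : T * (s + 1) ≤ T * s := by
    refine h2.trans ?_
    rw [e1, e2, e3, e0]
    simp only [← sum_add_distrib, sum_mul]
    refine sum_le_sum fun a _ => sum_le_sum fun b _ => ?_
    split_ifs with h
    · rw [← mul_add, ← mul_add]
      exact Nat.mul_le_mul_left _ (hs a b h)
    · simp
  have h4 : T = 0 := by nlinarith
  -- no transitive triangle: a vertex of minimum outdegree works
  obtain ⟨v, -, hv⟩ := exists_min_image (univ : Finset V) (fun v => (N1 D v).card)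
    ⟨Classical.arbitrary V, mem_univ _⟩
  have h5 := (hcon v).1
  have h6 : 0 < (N1 D v).card := by omega
  obtain ⟨u, hu⟩ := card_pos.mp h6
  rw [mem_N1] at hu
  have h7 := one_arc hD hu
  have h8 := hv u (mem_univ _)
  have h9 : cod D v u = 0 := by
    rw [h4] at e0
    have h10 := (sum_eq_zero_iff.mp e0.symm) v (mem_univ _)
    have h11 := (sum_eq_zero_iff.mp h10) u (mem_univ _)
    simpa [hu] using h11
  omega

/-- The key step for (C): in a counterexample with at most two common out-neighbours on every arc,
a vertex `v` of minimum outdegree sees a very rigid out-neighbourhood. -/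
lemma keyC {D : V → V → Prop} (hD : IsOriented D) (h2 : ∀ a b, D a b → cod D a b ≤ 2)
    (hcon : ∀ v, (N2 D v).card < (N1 D v).card) (v : V)
    (hv : ∀ u, (N1 D v).card ≤ (N1 D u).card) :
    (∀ u, D v u → cod D v u = 1) ∧ (∀ u w, D v u → D v w → D u w → cod D u w = 2) := by
  set dl : ℕ := (N1 D v).card with hdl
  have hN2 : (N2 D v).card + 1 ≤ dl := hcon v
  -- indegree inside the out-neighbourhood
  set b : V → ℕ := fun u => (univ.filter (fun z => D v z ∧ D z u)).card with hb
  set cX : V → V → ℕ := fun u w =>
    (univ.filter (fun z => D v z ∧ D u z ∧ D w z)).card with hcX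
  have hpos : ∀ u, D v u → 1 ≤ cod D v u := by
    intro u hu
    have h3 := one_arc hD hu
    have h4 := hv u
    omega
  have hab : ∀ u, D v u → cod D v u + b u + 1 ≤ dl := by
    intro u hu
    have h3 : (insert u (univ.filter (fun z => D v z ∧ D u z) ∪
        univ.filter (fun z => D v z ∧ D z u))).card ≤ dl := by
      rw [hdl]
      apply card_le_card
      intro z hz
      simp only [mem_insert, mem_union, mem_filter, mem_univ, true_and] at hz
      rw [mem_N1]
      rcases hz with rfl | hz | hz
      · exact hu
      · exact hz.1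
      · exact hz.1
    rw [card_insert_of_notMem, card_union_of_disjoint] at h3
    · exact h3
    · rw [Finset.disjoint_left]
      intro z hz hz'
      simp only [mem_filter, mem_univ, true_and] at hz hz'
      exact hD _ _ hz.2 hz'.2
    · simp only [mem_union, mem_filter, mem_univ, true_and]
      rintro (⟨_, h⟩ | ⟨_, h⟩)
      · exact hD _ _ h h
      · exact hD _ _ h h
  have harc : ∀ u w : V, (if D v u ∧ D v w ∧ D u w then (dl - 1) + (cX u w + (2 - cod D u w)) else 0)
      ≤ (if D v u ∧ D v w ∧ D u w then cod D v u else 0)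
        + (if D v u ∧ D v w ∧ D u w then cod D v w else 0) := by
    intro u w
    split_ifs with h
    · have h3 := triangle_ineq hD h.1 h.2.1
      have h4 := h2 u w h.2.2
      have h5 := hv u
      have h6 := hv w
      simp only [hcX]
      omega
    · simp
  have hsum : (∑ u : V, ∑ w : V,
        if D v u ∧ D v w ∧ D u w then (dl - 1) + (cX u w + (2 - cod D u w)) else 0)
      ≤ (∑ u : V, ∑ w : V, if D v u ∧ D v w ∧ D u w then cod D v u else 0)
        + (∑ u : V, ∑ w : V, if D v u ∧ D v w ∧ D u w then cod D v w else 0) := by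
    simp only [← sum_add_distrib]
    exact sum_le_sum fun u _ => sum_le_sum fun w _ => harc u w
  have s1 : (∑ u : V, ∑ w : V,
        if D v u ∧ D v w ∧ D u w then (dl - 1) + (cX u w + (2 - cod D u w)) else 0)
      = (∑ u : V, if D v u then cod D v u * (dl - 1) else 0)
        + ∑ u : V, ∑ w : V,
          if D v u ∧ D v w ∧ D u w then (cX u w + (2 - cod D u w)) else 0 := by
    rw [← sum_add_distrib]
    refine sum_congr rfl fun u _ => ?_
    by_cases h : D v u
    · simp only [h, true_and, if_true]
      rw [← sum_filter, sum_add_distrib, sum_const, smul_eq_mul, ← sum_filter]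
      rfl
    · simp [h]
  have s2 : (∑ u : V, ∑ w : V, if D v u ∧ D v w ∧ D u w then cod D v u else 0)
      = ∑ u : V, if D v u then cod D v u * cod D v u else 0 := by
    refine sum_congr rfl fun u _ => ?_
    by_cases h : D v u
    · simp only [h, true_and, if_true]
      rw [← sum_filter, sum_const, smul_eq_mul]
      rfl
    · simp [h]
  have s3 : (∑ u : V, ∑ w : V, if D v u ∧ D v w ∧ D u w then cod D v w else 0)
      = ∑ w : V, if D v w then cod D v w * b w else 0 := by
    rw [sum_comm]
    refine sum_congr rfl fun w _ => ?_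
    by_cases h : D v w
    · simp only [h, true_and, if_true]
      rw [← sum_filter, sum_const, smul_eq_mul, mul_comm]
    · simp [h]
  have s4 : (∑ u : V, if D v u then cod D v u * (dl - 1) else 0)
      = (∑ u : V, if D v u then cod D v u * cod D v u else 0)
        + (∑ w : V, if D v w then cod D v w * b w else 0)
        + ∑ u : V, if D v u then cod D v u * (dl - 1 - (cod D v u + b u)) else 0 := by
    rw [← sum_add_distrib, ← sum_add_distrib]
    refine sum_congr rfl fun u _ => ?_
    by_cases h : D v u
    · simp only [h, if_true]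
      have h3 := hab u h
      rw [← mul_add, ← mul_add]
      congr 1
      omega
    · simp [h]
  rw [s1, s2, s3, s4] at hsum
  have z1 : (∑ u : V, if D v u then cod D v u * (dl - 1 - (cod D v u + b u)) else 0) = 0 := by
    omega
  have z2 : (∑ u : V, ∑ w : V,
      if D v u ∧ D v w ∧ D u w then (cX u w + (2 - cod D u w)) else 0) = 0 := by
    omega
  have y1 : ∀ u, D v u → dl ≤ cod D v u + b u + 1 := by
    intro u hu
    have h3 := (sum_eq_zero_iff.mp z1) u (mem_univ _)
    simp only [hu, if_true, mul_eq_zero] at h3
    have h4 := hpos u hu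
    omega
  have y2 : ∀ u w, D v u → D v w → D u w → cX u w = 0 ∧ cod D u w = 2 := by
    intro u w hu hw huw
    have h3 := (sum_eq_zero_iff.mp z2) u (mem_univ _)
    have h4 := (sum_eq_zero_iff.mp h3) w (mem_univ _)
    simp only [hu, hw, huw, and_self, if_true] at h4
    have h5 := h2 u w huw
    omega
  -- the out-neighbourhood is a tournament
  have htour : ∀ u w, D v u → D v w → u ≠ w → D u w ∨ D w u := by
    intro u w hu hw huw
    by_contra hno
    push Not at hno
    have h3 : (insert w (insert u (univ.filter (fun z => D v z ∧ D u z) ∪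
        univ.filter (fun z => D v z ∧ D z u)))).card ≤ dl := by
      rw [hdl]
      apply card_le_card
      intro z hz
      simp only [mem_insert, mem_union, mem_filter, mem_univ, true_and] at hz
      rw [mem_N1]
      rcases hz with rfl | rfl | hz | hz
      · exact hw
      · exact hu
      · exact hz.1
      · exact hz.1
    rw [card_insert_of_notMem, card_insert_of_notMem, card_union_of_disjoint] at h3
    · have h4 := y1 u hu
      unfold cod at h4
      simp only [hb] at h4
      omega
    · rw [Finset.disjoint_left]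
      intro z hz hz'
      simp only [mem_filter, mem_univ, true_and] at hz hz'
      exact hD _ _ hz.2 hz'.2
    · simp only [mem_union, mem_filter, mem_univ, true_and]
      rintro (⟨_, h⟩ | ⟨_, h⟩)
      · exact hD _ _ h h
      · exact hD _ _ h h
    · simp only [mem_insert, mem_union, mem_filter, mem_univ, true_and]
      rintro (h | ⟨_, h⟩ | ⟨_, h⟩)
      · exact huw h.symm
      · exact hno.1 h
      · exact hno.2 h
  refine ⟨fun u hu => ?_, fun u w hu hw huw => (y2 u w hu hw huw).2⟩
  by_contra h1
  have h3 : 1 < (univ.filter (fun z => D v z ∧ D u z)).card := by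
    have := hpos u hu
    unfold cod at this h1
    omega
  obtain ⟨w, hw, z, hz, hwz⟩ := one_lt_card.mp h3
  simp only [mem_filter, mem_univ, true_and] at hw hz
  rcases htour w z hw.1 hz.1 hwz with h4 | h4
  · have h5 := (y2 u w hu hw.1 hw.2).1
    simp only [hcX, card_eq_zero] at h5
    have h6 : z ∈ univ.filter (fun z => D v z ∧ D u z ∧ D w z) := by
      simp [hz.1, hz.2, h4]
    rw [h5] at h6
    simp at h6
  · have h5 := (y2 u z hu hz.1 hz.2).1
    simp only [hcX, card_eq_zero] at h5
    have h6 : w ∈ univ.filter (fun y => D v y ∧ D u y ∧ D z y) := by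
      simp [hw.1, hw.2, h4]
    rw [h5] at h6
    simp at h6

/-- (C) the unconditional class. -/
lemma partC [Nonempty V] {D : V → V → Prop} (hD : IsOriented D)
    (h2 : ∀ a b, D a b → cod D a b ≤ 2) : ∃ v, (N1 D v).card ≤ (N2 D v).card := by
  by_contra hcon
  push Not at hcon
  obtain ⟨v, -, hv⟩ := exists_min_image (univ : Finset V) (fun v => (N1 D v).card)
    ⟨Classical.arbitrary V, mem_univ _⟩
  have hv' : ∀ u, (N1 D v).card ≤ (N1 D u).card := fun u => hv u (mem_univ _)
  obtain ⟨k1, k2⟩ := keyC hD h2 hcon v hv'
  have h5 := hcon v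
  have h6 : 0 < (N1 D v).card := by omega
  obtain ⟨u, hu⟩ := card_pos.mp h6
  rw [mem_N1] at hu
  have h7 := one_arc hD hu
  have h8 := k1 u hu
  have h9 : 0 < (univ.filter (fun z => D v z ∧ D u z)).card := by
    unfold cod at h8
    omega
  obtain ⟨w, hw⟩ := card_pos.mp h9
  simp only [mem_filter, mem_univ, true_and] at hw
  have h10 := k2 u w hu hw.1 hw.2
  have hu' : ∀ x, (N1 D u).card ≤ (N1 D x).card := fun x => by
    have := hv' x
    omega
  have h11 := (keyC hD h2 hcon u hu').1 w hw.2
  omega

/-- **Seymour's second neighbourhood conjecture for locally sparse oriented graphs.** Let `D` be a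
finite nonempty oriented graph.

(A) If every arc `a → b` has at most `t` common out-neighbours, then every vertex `v` of minimum
outdegree satisfies `|N2 v| ≥ min (|N1 v|, 2 |N1 v| - 3 t)`; so if also `δ⁺ ≥ 3 t` then every vertex
of minimum outdegree satisfies `|N1 v| ≤ |N2 v|`.

(B) If every arc lies in at most `s` transitive triangles and all outdegrees are at least `d`, then
some vertex has `|N1 v| ≤ |N2 v|` or `|N2 v| ≥ 2 d - s`; so the conjecture holds when all outdegrees
are at most `2 d - s`, in particular for every `d`-out-regular oriented graph in which every arc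
lies in at most `d` transitive triangles.

(C) If every arc has at most two common out-neighbours then the conjecture holds for `D`, with no
condition on the degrees. -/
theorem result {V : Type*} [Fintype V] [Nonempty V] (D : V → V → Prop) (hD : IsOriented D) :
    (∀ t : ℕ, (∀ a b, D a b → cod D a b ≤ t) →
      ∀ v, (∀ u, (N1 D v).card ≤ (N1 D u).card) →
        ((N1 D v).card ≤ (N2 D v).card ∨ 2 * (N1 D v).card ≤ (N2 D v).card + 3 * t) ∧
        (3 * t ≤ (N1 D v).card → (N1 D v).card ≤ (N2 D v).card)) ∧
    (∀ d s : ℕ, (∀ v, d ≤ (N1 D v).card) → (∀ a b, D a b → triangles D a b ≤ s) →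
      (∃ v, (N1 D v).card ≤ (N2 D v).card ∨ 2 * d ≤ (N2 D v).card + s) ∧
      ((∀ v, (N1 D v).card + s ≤ 2 * d) → ∃ v, (N1 D v).card ≤ (N2 D v).card)) ∧
    (∀ d : ℕ, (∀ v, (N1 D v).card = d) → (∀ a b, D a b → triangles D a b ≤ d) →
      ∃ v, (N1 D v).card ≤ (N2 D v).card) ∧
    ((∀ a b, D a b → cod D a b ≤ 2) → ∃ v, (N1 D v).card ≤ (N2 D v).card) := by
  have hB : ∀ d s : ℕ, (∀ v, d ≤ (N1 D v).card) → (∀ a b, D a b → triangles D a b ≤ s) →
      (∃ v, (N1 D v).card ≤ (N2 D v).card ∨ 2 * d ≤ (N2 D v).card + s) ∧
      ((∀ v, (N1 D v).card + s ≤ 2 * d) → ∃ v, (N1 D v).card ≤ (N2 D v).card) := by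
    intro d s hd hs
    have h := partB hD d s hd hs
    refine ⟨h, fun h' => ?_⟩
    obtain ⟨v, hv | hv⟩ := h
    · exact ⟨v, hv⟩
    · exact ⟨v, by have := h' v; omega⟩
  refine ⟨fun t ht v hv => ?_, hB, fun d hd hs => ?_, fun h2 => partC hD h2⟩
  · have h := partA hD t ht v hv
    refine ⟨h, fun h3 => ?_⟩
    rcases h with h | h <;> omega
  · exact (hB d d (fun v => (hd v).ge) hs).2 (fun v => by rw [hd v]; omega)

end Vale.Agent.Results.P038.LocallySparse
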